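import Vale.Agent.P159.Defs

/-!
The triangulated block with wired boundary and its dual graph: common definitions.

`N` is the side of the block `[0,N]²`. The bonds are the horizontal and vertical bonds of the block
with at least one inner end point and the diagonals `(i,j) → (i+1,j+1)` of all unit squares.
The faces are the triangles: `(i,j,false)` is the lower right triangle and `(i,j,true)` is the
upper left triangle of the unit square with lower left corner `(i,j)`.
-/

open MeasureTheory Filter Topology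

namespace Vale.Agent.P159.H353

/-- the triangles of the block of side `N` -/
abbrev Fc (N : ℕ) : Type := Fin N × Fin N × Bool

/-- the bonds: diagonals, vertical bonds `(i+1,j) → (i+1,j+1)`, horizontal bonds
`(i,j+1) → (i+1,j+1)` -/
abbrev Ed (N : ℕ) : Type := (Fin N × Fin N) ⊕ ((Fin (N - 1) × Fin N) ⊕ (Fin N × Fin (N - 1)))

/-- `Fin (N-1) → Fin N`, same value -/
def lo {N : ℕ} (i : Fin (N - 1)) : Fin N := ⟨i.1, by omega⟩

/-- `Fin (N-1) → Fin N`, value plus one -/
def hi {N : ℕ} (i : Fin (N - 1)) : Fin N := ⟨i.1 + 1, by omega⟩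

/-- initial point of a bond -/
def st {N : ℕ} : Ed N → ℤ × ℤ
  | Sum.inl p => ((p.1.1 : ℤ), (p.2.1 : ℤ))
  | Sum.inr (Sum.inl p) => ((p.1.1 : ℤ) + 1, (p.2.1 : ℤ))
  | Sum.inr (Sum.inr p) => ((p.1.1 : ℤ), (p.2.1 : ℤ) + 1)

/-- end point of a bond -/
def en {N : ℕ} : Ed N → ℤ × ℤ
  | Sum.inl p => ((p.1.1 : ℤ) + 1, (p.2.1 : ℤ) + 1)
  | Sum.inr (Sum.inl p) => ((p.1.1 : ℤ) + 1, (p.2.1 : ℤ) + 1)
  | Sum.inr (Sum.inr p) => ((p.1.1 : ℤ) + 1, (p.2.1 : ℤ) + 1)

/-- the face to the left of a bond -/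
def lf {N : ℕ} : Ed N → Fc N
  | Sum.inl p => (p.1, p.2, true)
  | Sum.inr (Sum.inl p) => (lo p.1, p.2, false)
  | Sum.inr (Sum.inr p) => (p.1, hi p.2, false)

/-- the face to the right of a bond -/
def rt {N : ℕ} : Ed N → Fc N
  | Sum.inl p => (p.1, p.2, false)
  | Sum.inr (Sum.inl p) => (hi p.1, p.2, true)
  | Sum.inr (Sum.inr p) => (p.1, lo p.2, true)

/-- the current of the heights `h` through a bond -/
def cur {N : ℕ} (h : Fc N → ℤ) (e : Ed N) : ℤ := h (lf e) - h (rt e)

/-- the difference of the spins along a bond -/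
noncomputable def dth {N : ℕ} (θ : inner N → T) (e : Ed N) : T := ext θ (st e) - ext θ (en e)

/-- the Fourier coefficients of `exp (b cos x)` -/
noncomputable def wI (b : ℝ) (n : ℤ) : ℝ :=
  Real.exp (-b) * ∑' k : ℕ, (b / 2) ^ k / (k.factorial : ℝ) * ((2 * k).choose (k + n.natAbs) : ℝ)

/-- the weight function of the sides -/
noncomputable def gS (b : ℝ) (x : T) : ℝ := Real.exp (b * cosT x)

/-- the weight function of the diagonals: two couplings `c` in series -/
noncomputable def gD (c : ℝ) (x : T) : ℝ :=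
  ∫ ζ : T, Real.exp (c * cosT ζ) * Real.exp (c * cosT (x - ζ)) ∂AddCircle.haarAddCircle

/-- the spin weights: coupling `b` on the sides and two couplings `c` in series on the
diagonals -/
noncomputable def gE {N : ℕ} (b c : ℝ) : Ed N → T → ℝ
  | Sum.inl _ => gD c
  | Sum.inr _ => gS b

/-- the height weights -/
noncomputable def wt {N : ℕ} (b c : ℝ) : Ed N → ℤ → ℝ
  | Sum.inl _ => fun n => (wI c n) ^ 2
  | Sum.inr _ => wI b

/-- coupling of a bond -/
def cpl {N : ℕ} (b c : ℝ) : Ed N → ℝ
  | Sum.inl _ => c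
  | Sum.inr _ => b

/-- the twisted partition function of the triangulated wired block -/
noncomputable def ZT (N : ℕ) (b c : ℝ) (t : Ed N → ℝ) : ℝ :=
  ∫ θ : inner N → T, ∏ e, gE b c e (dth θ e + ((t e : ℝ) : T)) ∂torusHaar (inner N)

/-- heights with value `0` at the face `v` -/
abbrev Ht (N : ℕ) (v : Fc N) : Type := {h : Fc N → ℤ // h v = 0}

/-- the weight of the heights -/
noncomputable def Wh {N : ℕ} (b c : ℝ) (h : Fc N → ℤ) : ℝ := ∏ e, wt b c e (cur h e)

end Vale.Agent.P159.H353
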