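import Vale.Agent.P159.H353.Mom

/-!
Averages of the heights over the sides of the block, and the reflection `(x,y) → (N-y,N-x)`.
-/

open MeasureTheory Filter Topology

namespace Vale.Agent.P159.H353

/-- average over the upper left triangles of the left side -/
noncomputable def al {N : ℕ} (x : Fc N) : ℝ := if x.1.1 = 0 ∧ x.2.2 = true then 1 / (N : ℝ) else 0

/-- average over the lower right triangles of the right side -/
noncomputable def be {N : ℕ} (x : Fc N) : ℝ :=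
  if x.1.1 = N - 1 ∧ x.2.2 = false then 1 / (N : ℝ) else 0

/-- average over the upper left triangles of the upper side -/
noncomputable def al' {N : ℕ} (x : Fc N) : ℝ :=
  if x.2.1.1 = N - 1 ∧ x.2.2 = true then 1 / (N : ℝ) else 0

/-- average over the lower right triangles of the lower side -/
noncomputable def be' {N : ℕ} (x : Fc N) : ℝ :=
  if x.2.1.1 = 0 ∧ x.2.2 = false then 1 / (N : ℝ) else 0

lemma al_nonneg {N : ℕ} (x : Fc N) : 0 ≤ al x := by unfold al; positivity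

lemma be_nonneg {N : ℕ} (x : Fc N) : 0 ≤ be x := by unfold be; positivity

lemma al'_nonneg {N : ℕ} (x : Fc N) : 0 ≤ al' x := by unfold al'; positivity

lemma be'_nonneg {N : ℕ} (x : Fc N) : 0 ≤ be' x := by unfold be'; positivity

lemma sum_al (M : ℕ) (f : Fc (M + 1) → ℝ) :
    ∑ x, al x * f x = 1 / ((M : ℝ) + 1) * ∑ j : Fin (M + 1), f (0, j, true) := by
  rw [Fintype.sum_prod_type]
  rw [Finset.sum_eq_single (0 : Fin (M + 1))]
  · rw [Fintype.sum_prod_type, Finset.mul_sum]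
    refine Finset.sum_congr rfl fun j _ => ?_
    rw [Fintype.sum_bool]
    simp [al]
  · intro i _ hi
    apply Finset.sum_eq_zero
    intro y _
    have : i.1 ≠ 0 := fun h => hi (Fin.ext h)
    simp [al, this]
  · intro h
    exact absurd (Finset.mem_univ _) h

lemma sum_be (M : ℕ) (f : Fc (M + 1) → ℝ) :
    ∑ x, be x * f x = 1 / ((M : ℝ) + 1) * ∑ j : Fin (M + 1), f (Fin.last M, j, false) := by
  rw [Fintype.sum_prod_type]
  rw [Finset.sum_eq_single (Fin.last M)]
  · rw [Fintype.sum_prod_type, Finset.mul_sum]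
    refine Finset.sum_congr rfl fun j _ => ?_
    rw [Fintype.sum_bool]
    simp [be]
  · intro i _ hi
    apply Finset.sum_eq_zero
    intro y _
    have : i.1 ≠ M := fun h => hi (Fin.ext h)
    simp [be, this]
  · intro h
    exact absurd (Finset.mem_univ _) h

/-- the reflection of the faces -/
def sg {N : ℕ} (x : Fc N) : Fc N := (x.2.1.rev, x.1.rev, x.2.2)

lemma sg_sg {N : ℕ} (x : Fc N) : sg (sg x) = x := by simp [sg]

/-- the reflection of the faces as a permutation -/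
def sgP (N : ℕ) : Fc N ≃ Fc N := ⟨sg, sg, sg_sg, sg_sg⟩

/-- the reflection of the bonds -/
def sgE {N : ℕ} : Ed N → Ed N
  | Sum.inl p => Sum.inl (p.2.rev, p.1.rev)
  | Sum.inr (Sum.inl p) => Sum.inr (Sum.inr (p.2.rev, p.1.rev))
  | Sum.inr (Sum.inr p) => Sum.inr (Sum.inl (p.2.rev, p.1.rev))

lemma sgE_sgE {N : ℕ} (e : Ed N) : sgE (sgE e) = e := by
  rcases e with p | p | p <;> simp [sgE]

/-- the reflection of the bonds as a permutation -/
def sgEP (N : ℕ) : Ed N ≃ Ed N := ⟨sgE, sgE, sgE_sgE, sgE_sgE⟩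

lemma rev_lo {N : ℕ} (i : Fin (N - 1)) : (lo i : Fin N).rev = hi i.rev := by
  apply Fin.ext
  simp only [Fin.val_rev, lo, Vale.Agent.P159.H353.hi]
  omega

lemma rev_hi {N : ℕ} (i : Fin (N - 1)) : (hi i : Fin N).rev = lo i.rev := by
  apply Fin.ext
  simp only [Fin.val_rev, lo, Vale.Agent.P159.H353.hi]
  omega

lemma lf_sgE {N : ℕ} (e : Ed N) : lf (sgE e) = sg (lf e) := by
  rcases e with p | p | p
  · rfl
  · simp only [sgE, lf, sg, rev_lo]
  · simp only [sgE, lf, sg, rev_hi]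

lemma rt_sgE {N : ℕ} (e : Ed N) : rt (sgE e) = sg (rt e) := by
  rcases e with p | p | p
  · rfl
  · simp only [sgE, rt, sg, rev_hi]
  · simp only [sgE, rt, sg, rev_lo]

lemma cur_sg {N : ℕ} (h : Fc N → ℤ) (e : Ed N) : cur (fun x => h (sg x)) e = cur h (sgE e) := by
  unfold cur
  rw [lf_sgE, rt_sgE]

lemma wt_sgE {N : ℕ} (b c : ℝ) (e : Ed N) : wt b c (sgE e) = wt b c e := by
  rcases e with p | p | p <;> rfl

lemma Wh_sg {N : ℕ} (b c : ℝ) (h : Fc N → ℤ) : Wh b c (fun x => h (sg x)) = Wh b c h := by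
  unfold Wh
  rw [← (sgEP N).prod_comp (fun e => wt b c e (cur h e))]
  refine Finset.prod_congr rfl fun e _ => ?_
  show _ = wt b c (sgE e) (cur h (sgE e))
  rw [cur_sg, wt_sgE]

lemma al_sg {N : ℕ} (x : Fc N) : al (sg x) = al' x := by
  have h : (sg x).1.1 = 0 ↔ x.2.1.1 = N - 1 := by
    have := x.2.1.2
    simp only [sg, Fin.val_rev]
    omega
  unfold al al'
  simp only [h]
  rfl

lemma be_sg {N : ℕ} (x : Fc N) : be (sg x) = be' x := by
  have h : (sg x).1.1 = N - 1 ↔ x.2.1.1 = 0 := by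
    have := x.2.1.2
    simp only [sg, Fin.val_rev]
    omega
  unfold be be'
  simp only [h]
  rfl

lemma sum_al_sg {N : ℕ} (h : Fc N → ℤ) :
    ∑ x, al x * (h (sg x) : ℝ) = ∑ x, al' x * (h x : ℝ) := by
  rw [← (sgP N).sum_comp]
  refine Finset.sum_congr rfl fun x _ => ?_
  show al (sg x) * (h (sg (sg x)) : ℝ) = _
  rw [al_sg, sg_sg]

lemma sum_be_sg {N : ℕ} (h : Fc N → ℤ) :
    ∑ x, be x * (h (sg x) : ℝ) = ∑ x, be' x * (h x : ℝ) := by
  rw [← (sgP N).sum_comp]
  refine Finset.sum_congr rfl fun x _ => ?_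
  show be (sg x) * (h (sg (sg x)) : ℝ) = _
  rw [be_sg, sg_sg]

lemma sum_al'_eq {N : ℕ} : ∑ x : Fc N, al' x = ∑ x : Fc N, al x := by
  rw [← (sgP N).sum_comp (fun x => al x)]
  exact Finset.sum_congr rfl fun x _ => (al_sg x).symm

lemma sum_be'_eq {N : ℕ} : ∑ x : Fc N, be' x = ∑ x : Fc N, be x := by
  rw [← (sgP N).sum_comp (fun x => be x)]
  exact Finset.sum_congr rfl fun x _ => (be_sg x).symm

lemma sum_al_one (M : ℕ) : ∑ x : Fc (M + 1), al x = 1 := by
  have h := sum_al M (fun _ => 1)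
  simp only [mul_one, Finset.sum_const, Finset.card_univ, Fintype.card_fin, nsmul_eq_mul] at h
  rw [h]
  push_cast
  field_simp

lemma sum_be_one (M : ℕ) : ∑ x : Fc (M + 1), be x = 1 := by
  have h := sum_be M (fun _ => 1)
  simp only [mul_one, Finset.sum_const, Finset.card_univ, Fintype.card_fin, nsmul_eq_mul] at h
  rw [h]
  push_cast
  field_simp

lemma sum_al'_one (M : ℕ) : ∑ x : Fc (M + 1), al' x = 1 := by rw [sum_al'_eq, sum_al_one]

lemma sum_be'_one (M : ℕ) : ∑ x : Fc (M + 1), be' x = 1 := by rw [sum_be'_eq, sum_be_one]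

/-- the face at the lower right corner of the block -/
def vC (M : ℕ) : Fc (M + 1) := (Fin.last M, 0, false)

lemma sg_vC (M : ℕ) : sg (vC M) = vC M := by simp [sg, vC]

/-- the reflection of the heights -/
def sgH (M : ℕ) : Ht (M + 1) (vC M) ≃ Ht (M + 1) (vC M) where
  toFun h := ⟨fun x => h.1 (sg x), by
    show h.1 (sg (vC M)) = 0
    rw [sg_vC]
    exact h.2⟩
  invFun h := ⟨fun x => h.1 (sg x), by
    show h.1 (sg (vC M)) = 0
    rw [sg_vC]
    exact h.2⟩
  left_inv h := by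
    apply Subtype.ext
    funext x
    simp only [sg_sg]
  right_inv h := by
    apply Subtype.ext
    funext x
    simp only [sg_sg]

/-- the law of the heights is invariant under the reflection -/
theorem tsum_sg (M : ℕ) (b c : ℝ) (F : (Fc (M + 1) → ℤ) → ℝ) :
    ∑' h : Ht (M + 1) (vC M), Wh b c h.1 * F (fun x => h.1 (sg x)) =
      ∑' h : Ht (M + 1) (vC M), Wh b c h.1 * F h.1 := by
  rw [← (sgH M).tsum_eq (fun h => Wh b c h.1 * F h.1)]
  refine tsum_congr fun h => ?_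
  show _ = Wh b c (fun x => h.1 (sg x)) * F (fun x => h.1 (sg x))
  rw [Wh_sg]

/-- `al·h` and `al'·h` have the same law -/
theorem tsum_al (M : ℕ) (b c : ℝ) (F : ℝ → ℝ) :
    ∑' h : Ht (M + 1) (vC M), Wh b c h.1 * F (∑ x, al x * (h.1 x : ℝ)) =
      ∑' h : Ht (M + 1) (vC M), Wh b c h.1 * F (∑ x, al' x * (h.1 x : ℝ)) := by
  rw [← tsum_sg M b c (fun h => F (∑ x, al x * (h x : ℝ)))]
  refine tsum_congr fun h => ?_
  simp only [sum_al_sg]

/-- `al·h - be·h` and `al'·h - be'·h` have the same law -/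
theorem tsum_al_be (M : ℕ) (b c : ℝ) (F : ℝ → ℝ) :
    ∑' h : Ht (M + 1) (vC M), Wh b c h.1 *
        F (∑ x, al x * (h.1 x : ℝ) - ∑ x, be x * (h.1 x : ℝ)) =
      ∑' h : Ht (M + 1) (vC M), Wh b c h.1 *
        F (∑ x, al' x * (h.1 x : ℝ) - ∑ x, be' x * (h.1 x : ℝ)) := by
  rw [← tsum_sg M b c (fun h => F (∑ x, al x * (h x : ℝ) - ∑ x, be x * (h x : ℝ)))]
  refine tsum_congr fun h => ?_
  simp only [sum_al_sg, sum_be_sg]

/-- the horizontal twist -/
noncomputable def tH {N : ℕ} : Ed N → ℝ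
  | Sum.inl _ => 1
  | Sum.inr (Sum.inl _) => 0
  | Sum.inr (Sum.inr _) => 1

/-- the vertical twist -/
noncomputable def tV {N : ℕ} : Ed N → ℝ
  | Sum.inl _ => 1
  | Sum.inr (Sum.inl _) => 1
  | Sum.inr (Sum.inr _) => 0

lemma sum_tV (M : ℕ) (h : Fc (M + 1) → ℤ) :
    ∑ e, tV e * (cur h e : ℝ) =
      ∑ j : Fin (M + 1), ((h (0, j, true) : ℝ) - h (Fin.last M, j, false)) := by
  rw [Fintype.sum_sum_type, Fintype.sum_sum_type]
  simp only [tV, one_mul, zero_mul, Finset.sum_const_zero, add_zero]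
  rw [Fintype.sum_prod_type_right, Fintype.sum_prod_type_right, ← Finset.sum_add_distrib]
  refine Finset.sum_congr rfl fun j _ => ?_
  simp only [cur, lf, rt]
  change (∑ x : Fin (M + 1), (((h (x, j, true) - h (x, j, false) : ℤ)) : ℝ)) +
    ∑ x : Fin M, ((h (x.castSucc, j, false) - h (x.succ, j, true) : ℤ) : ℝ) = _
  push_cast
  rw [Finset.sum_sub_distrib, Finset.sum_sub_distrib,
    Fin.sum_univ_succ (fun x : Fin (M + 1) => (h (x, j, true) : ℝ)),
    Fin.sum_univ_castSucc (fun x : Fin (M + 1) => (h (x, j, false) : ℝ))]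
  ring

lemma tV_sg {N : ℕ} (e : Ed N) : (tV (sgE e) : ℝ) = tH e := by
  rcases e with p | p | p <;> rfl

/-- `al·h - be·h` as a combination of currents -/
lemma al_be_cur (M : ℕ) (h : Fc (M + 1) → ℤ) :
    ∑ x, al x * (h x : ℝ) - ∑ x, be x * (h x : ℝ) =
      ∑ e, (1 / ((M : ℝ) + 1) * tV e) * (cur h e : ℝ) := by
  rw [sum_al, sum_be, ← mul_sub, ← Finset.sum_sub_distrib, ← sum_tV, Finset.mul_sum]
  exact Finset.sum_congr rfl fun e _ => by ring

/-- `al'·h - be'·h` as a combination of currents -/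
lemma al'_be'_cur (M : ℕ) (h : Fc (M + 1) → ℤ) :
    ∑ x, al' x * (h x : ℝ) - ∑ x, be' x * (h x : ℝ) =
      ∑ e, (1 / ((M : ℝ) + 1) * tH e) * (cur h e : ℝ) := by
  rw [← sum_al_sg, ← sum_be_sg, al_be_cur, ← (sgEP (M + 1)).sum_comp]
  refine Finset.sum_congr rfl fun e _ => ?_
  show _ * tV (sgE e) * (cur (fun x => h (sg x)) (sgE e) : ℝ) = _
  rw [tV_sg, cur_sg, sgE_sgE]

/-- path from the corner to the right side -/
noncomputable def tR {M : ℕ} : Ed (M + 1) → ℝ
  | Sum.inl p => if p.1 = Fin.last M then ((M : ℝ) - p.2.1) / ((M : ℝ) + 1) else 0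
  | Sum.inr (Sum.inl _) => 0
  | Sum.inr (Sum.inr p) => if p.1 = Fin.last M then ((M : ℝ) - p.2.1) / ((M : ℝ) + 1) else 0

lemma collapse {M k : ℕ} (g : Fin (M + 1) → Fin k → ℝ) :
    ∑ i, ∑ y, (if i = Fin.last M then g i y else 0) = ∑ y, g (Fin.last M) y := by
  rw [Finset.sum_eq_single (Fin.last M)]
  · simp
  · intro i _ hi
    simp [hi]
  · intro h
    exact absurd (Finset.mem_univ _) h

lemma be_cur (M : ℕ) (h : Fc (M + 1) → ℤ) :
    ∑ x, be x * (h x : ℝ) - h (vC M) = ∑ e, tR e * (cur h e : ℝ) := by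
  rw [sum_be, Fintype.sum_sum_type, Fintype.sum_sum_type]
  simp only [tR, zero_mul, Finset.sum_const_zero, zero_add, ite_mul]
  rw [Fintype.sum_prod_type, Fintype.sum_prod_type]
  simp only
  rw [collapse, collapse]
  · simp only [cur, lf, rt]
    change _ = (∑ x : Fin (M + 1), ((M : ℝ) - (x : ℕ)) / ((M : ℝ) + 1) *
      (((h (Fin.last M, x, true) - h (Fin.last M, x, false) : ℤ)) : ℝ)) +
      ∑ x : Fin M, ((M : ℝ) - (x : ℕ)) / ((M : ℝ) + 1) *
        ((h (Fin.last M, x.succ, false) - h (Fin.last M, x.castSucc, true) : ℤ) : ℝ)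
    push_cast
    simp only [mul_sub]
    rw [Finset.sum_sub_distrib, Finset.sum_sub_distrib,
      Fin.sum_univ_castSucc (fun x : Fin (M + 1) => ((M : ℝ) - (x : ℕ)) / ((M : ℝ) + 1) *
        (h (Fin.last M, x, true) : ℝ)),
      Fin.sum_univ_succ (fun x : Fin (M + 1) => ((M : ℝ) - (x : ℕ)) / ((M : ℝ) + 1) *
        (h (Fin.last M, x, false) : ℝ)),
      Fin.sum_univ_succ (fun x : Fin (M + 1) => (h (Fin.last M, x, false) : ℝ))]
    have hpos : (M : ℝ) + 1 ≠ 0 := by positivity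
    have e1 : ∑ x : Fin M, ((M : ℝ) - (x.succ : ℕ)) / ((M : ℝ) + 1) *
        (h (Fin.last M, x.succ, false) : ℝ) =
        ∑ x : Fin M, ((M : ℝ) - (x : ℕ)) / ((M : ℝ) + 1) * (h (Fin.last M, x.succ, false) : ℝ) -
        1 / ((M : ℝ) + 1) * ∑ x : Fin M, (h (Fin.last M, x.succ, false) : ℝ) := by
      rw [Finset.mul_sum, ← Finset.sum_sub_distrib]
      refine Finset.sum_congr rfl fun x _ => ?_
      simp only [Fin.val_succ]
      push_cast
      ring
    rw [e1]
    simp only [Fin.val_castSucc, Fin.val_last, Fin.val_zero, vC]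
    field_simp
    push_cast
    ring

/-- path from the corner to the left side -/
noncomputable def tP {M : ℕ} (e : Ed (M + 1)) : ℝ := 1 / ((M : ℝ) + 1) * tV e + tR e

/-- `al·h - h (corner)` as a combination of currents -/
theorem al_cur (M : ℕ) (h : Fc (M + 1) → ℤ) :
    ∑ x, al x * (h x : ℝ) - h (vC M) = ∑ e, tP e * (cur h e : ℝ) := by
  have h1 := al_be_cur M h
  have h2 := be_cur M h
  unfold tP
  simp only [add_mul]
  rw [Finset.sum_add_distrib, ← h1, ← h2]
  ring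

lemma sum_cpl_tV (M : ℕ) {b c : ℝ} (hb : 0 ≤ b) :
    ∑ e : Ed (M + 1), cpl b c e * (1 / ((M : ℝ) + 1) * tV e) ^ 2 ≤ b + c := by
  rw [Fintype.sum_sum_type, Fintype.sum_sum_type]
  simp only [cpl, tV, mul_one, mul_zero, Finset.sum_const, Finset.card_univ, Fintype.card_prod,
    Fintype.card_fin, nsmul_eq_mul, add_tsub_cancel_right]
  have hpos : 0 < (M : ℝ) + 1 := by positivity
  push_cast
  have e1 : ((M : ℝ) + 1) * ((M : ℝ) + 1) * (c * (1 / ((M : ℝ) + 1)) ^ 2) = c := by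
    field_simp
  have e2 : (M : ℝ) * ((M : ℝ) + 1) * (b * (1 / ((M : ℝ) + 1)) ^ 2) = b * (M / ((M : ℝ) + 1)) := by
    field_simp
  rw [e1, e2]
  have h3 : (M : ℝ) / ((M : ℝ) + 1) ≤ 1 := by
    rw [div_le_one hpos]; linarith
  have h4 := mul_le_mul_of_nonneg_left h3 hb
  simp only [ne_eq, OfNat.ofNat_ne_zero, not_false_eq_true, zero_pow, mul_zero, add_zero]
  linarith

lemma sum_cpl_tR (M : ℕ) {b c : ℝ} (hb : 0 ≤ b) (hc : 0 ≤ c) :
    ∑ e : Ed (M + 1), cpl b c e * (tR e) ^ 2 ≤ (b + c) * ((M : ℝ) + 1) := by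
  rw [Fintype.sum_sum_type, Fintype.sum_sum_type]
  simp only [cpl, tR]
  have hpos : 0 < (M : ℝ) + 1 := by positivity
  have key : ∀ (k : ℕ) (a : ℝ), 0 ≤ a → k ≤ M + 1 →
      ∑ x : Fin (M + 1) × Fin k, a *
        (if x.1 = Fin.last M then ((M : ℝ) - (x.2 : ℕ)) / ((M : ℝ) + 1) else 0) ^ 2 ≤
        a * ((M : ℝ) + 1) := by
    intro k a ha hk
    rw [Fintype.sum_prod_type, Finset.sum_eq_single (Fin.last M)]
    · simp only [if_true]
      have : ∀ y : Fin k, a * (((M : ℝ) - (y : ℕ)) / ((M : ℝ) + 1)) ^ 2 ≤ a * 1 := by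
        intro y
        refine mul_le_mul_of_nonneg_left ?_ ha
        have hy : ((y : ℕ) : ℝ) ≤ M := by
          have := y.2
          exact_mod_cast (by omega : (y : ℕ) ≤ M)
        have h0 : 0 ≤ ((M : ℝ) - (y : ℕ)) / ((M : ℝ) + 1) :=
          div_nonneg (by linarith) hpos.le
        have h1 : ((M : ℝ) - (y : ℕ)) / ((M : ℝ) + 1) ≤ 1 := by
          rw [div_le_one hpos]
          have : (0 : ℝ) ≤ (y : ℕ) := Nat.cast_nonneg _
          linarith
        exact pow_le_one₀ h0 h1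
      refine (Finset.sum_le_sum fun y _ => this y).trans ?_
      simp only [Finset.sum_const, Finset.card_univ, Fintype.card_fin, nsmul_eq_mul, mul_one]
      have hk' : (k : ℝ) ≤ (M : ℝ) + 1 := by exact_mod_cast hk
      nlinarith
    · intro i _ hi
      apply Finset.sum_eq_zero
      intro y _
      rw [if_neg hi]
      ring
    · intro h
      exact absurd (Finset.mem_univ _) h
  have h1 := key (M + 1) c hc le_rfl
  have h2 := key (M + 1 - 1) b hb (by omega)
  simp only [ne_eq, OfNat.ofNat_ne_zero, not_false_eq_true, zero_pow, mul_zero,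
    Finset.sum_const_zero, zero_add]
  linarith

theorem sum_cpl_tP (M : ℕ) {b c : ℝ} (hb : 0 ≤ b) (hc : 0 ≤ c) :
    ∑ e : Ed (M + 1), cpl b c e * (tP e) ^ 2 ≤ 4 * (b + c) * ((M : ℝ) + 1) := by
  have h1 := sum_cpl_tV M (b := b) (c := c) hb
  have h2 := sum_cpl_tR M hb hc
  have hcpl : ∀ e : Ed (M + 1), 0 ≤ cpl b c e := by
    intro e
    rcases e with p | p
    · exact hc
    · exact hb
  have h3 : ∑ e : Ed (M + 1), cpl b c e * (tP e) ^ 2 ≤
      2 * ∑ e : Ed (M + 1), cpl b c e * (1 / ((M : ℝ) + 1) * tV e) ^ 2 +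
      2 * ∑ e : Ed (M + 1), cpl b c e * (tR e) ^ 2 := by
    rw [Finset.mul_sum, Finset.mul_sum, ← Finset.sum_add_distrib]
    refine Finset.sum_le_sum fun e _ => ?_
    unfold tP
    nlinarith [mul_nonneg (hcpl e) (sq_nonneg (1 / ((M : ℝ) + 1) * tV e - tR e))]
  have hM : (0 : ℝ) ≤ M := Nat.cast_nonneg _
  nlinarith [mul_nonneg (add_nonneg hb hc) hM]

/-- second moments of all heights are finite, summed form -/
theorem summable_qq {N : ℕ} {b c : ℝ} (hb : 0 ≤ b) (hc : 0 ≤ c) (v : Fc N)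
    (hG : ∀ t : Ed N → ℝ, ZT N b c 0 * Real.exp (-(1 / 2) * ∑ e, cpl b c e * (t e) ^ 2) ≤
      ZT N b c t) :
    Summable fun h : Ht N v => Wh b c h.1 * (1 + ∑ x, (h.1 x : ℝ) ^ 2) := by
  have h1 := summable_Wh hb hc v
  have h2 : Summable fun h : Ht N v => ∑ x, Wh b c h.1 * (h.1 x : ℝ) ^ 2 :=
    summable_sum fun x _ => summable_height_sq hb hc v hG x
  refine (h1.add h2).congr fun h => ?_
  rw [mul_add, mul_one, Finset.mul_sum]

end Vale.Agent.P159.H353
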