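import Vale.Agent.P159.H353.Coef

/-!
Properties of the weights: even, decreasing, not too concentrated at `0`.
-/

open MeasureTheory Filter Topology

namespace Vale.Agent.P159.H353

lemma choose_step (k m : ℕ) : (2 * k).choose (k + (m + 1)) ≤ (2 * k).choose (k + m) := by
  have h := Nat.choose_succ_right_eq (2 * k) (k + m)
  have h2 : (2 * k).choose (k + m) * (2 * k - (k + m)) ≤ (2 * k).choose (k + m) * (k + m + 1) :=
    Nat.mul_le_mul_left _ (by omega)
  rw [← h] at h2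
  exact Nat.le_of_mul_le_mul_right h2 (by omega)

lemma cb_anti (k : ℕ) {m n : ℤ} (h : |m| ≤ |n|) : cb k n ≤ cb k m := by
  unfold cb
  have h' : m.natAbs ≤ n.natAbs := by
    rw [Int.abs_eq_natAbs, Int.abs_eq_natAbs] at h
    omega
  have ha : Antitone fun j : ℕ => (2 * k).choose (k + j) := antitone_nat_of_succ_le fun j =>
    choose_step k j
  exact ha h'

lemma aw_anti {b : ℝ} (hb : 0 ≤ b) (k : ℕ) {m n : ℤ} (h : |m| ≤ |n|) : aw b k n ≤ aw b k m := by
  unfold aw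
  have := cb_anti k h
  have h2 : (cb k n : ℝ) ≤ (cb k m : ℝ) := by exact_mod_cast this
  exact mul_le_mul_of_nonneg_left h2 (by positivity)

lemma wI_anti {b : ℝ} (hb : 0 ≤ b) {m n : ℤ} (h : |m| ≤ |n|) : wI b n ≤ wI b m := by
  rw [wI_eq, wI_eq]
  refine mul_le_mul_of_nonneg_left ?_ (Real.exp_pos _).le
  exact (summable_aw_col hb n).tsum_le_tsum (fun k => aw_anti hb k h) (summable_aw_col hb m)

lemma aw_zero_zero (b : ℝ) : aw b 0 0 = 1 := by
  simp [aw, cb]

lemma wI_zero_pos {b : ℝ} (hb : 0 ≤ b) : 0 < wI b 0 := by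
  rw [wI_eq]
  refine mul_pos (Real.exp_pos _) ?_
  have h := (summable_aw_col hb 0).le_tsum 0 fun k _ => aw_nonneg hb k 0
  rw [aw_zero_zero] at h
  linarith

lemma cb_one_zero (k : ℕ) : (cb k 1 : ℝ) = (cb k 0 : ℝ) * (k / (k + 1)) := by
  have h := Nat.choose_succ_right_eq (2 * k) k
  have e : 2 * k - k = k := by omega
  rw [e] at h
  have h2 : ((2 * k).choose (k + 1) : ℝ) * ((k : ℝ) + 1) = ((2 * k).choose k : ℝ) * k := by
    exact_mod_cast h
  unfold cb
  simp only [Int.natAbs_one, Int.natAbs_zero, add_zero]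
  have : (k : ℝ) + 1 ≠ 0 := by positivity
  field_simp
  linarith

/-- the ratio of the first two coefficients -/
lemma ratio_ge {b r : ℝ} (hb : 0 ≤ b) (K : ℕ) (hK : ∀ k : ℕ, K ≤ k → r * ((k : ℝ) + 1) ≤ k)
    (hs : 0 ≤ ∑ k ∈ Finset.range K, (aw b k 1 - r * aw b k 0)) : r * wI b 0 ≤ wI b 1 := by
  have h1 : Summable fun k => aw b k 1 - r * aw b k 0 :=
    (summable_aw_col hb 1).sub ((summable_aw_col hb 0).mul_left r)
  have h2 : 0 ≤ ∑' k, (aw b k 1 - r * aw b k 0) := by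
    refine hs.trans (h1.sum_le_tsum _ fun k hk => ?_)
    rw [Finset.mem_range, not_lt] at hk
    have h3 := hK k hk
    unfold aw
    rw [cb_one_zero]
    have h4 : r ≤ (k : ℝ) / (k + 1) := by
      rw [le_div_iff₀ (by positivity)]
      exact h3
    have h5 : 0 ≤ (b / 2) ^ k / (k.factorial : ℝ) * (cb k 0 : ℝ) := by positivity
    nlinarith [mul_le_mul_of_nonneg_left h4 h5]
  rw [(summable_aw_col hb 1).tsum_sub ((summable_aw_col hb 0).mul_left r), tsum_mul_left] at h2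
  rw [wI_eq, wI_eq]
  nlinarith [Real.exp_pos (-b)]

lemma side_half : wI (5 / 4) 0 ≤ 2 * wI (5 / 4) 1 := by
  have h := ratio_ge (b := 5 / 4) (r := 1 / 2) (by norm_num) 5 (by
    intro k hk
    have : (5 : ℝ) ≤ k := by exact_mod_cast hk
    linarith) (by
    simp [Finset.sum_range_succ, aw, cb, Nat.factorial, Nat.choose]
    norm_num)
  linarith

lemma diag_ratio : 5 / 7 * wI (9 / 4) 0 ≤ wI (9 / 4) 1 := by
  refine ratio_ge (b := 9 / 4) (r := 5 / 7) (by norm_num) 7 (by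
    intro k hk
    have : (7 : ℝ) ≤ k := by exact_mod_cast hk
    linarith) (by
    simp [Finset.sum_range_succ, aw, cb, Nat.factorial, Nat.choose]
    norm_num)

lemma diag_half : (wI (9 / 4) 0) ^ 2 ≤ 2 * (wI (9 / 4) 1) ^ 2 := by
  have h := diag_ratio
  have h0 := wI_nonneg (b := 9 / 4) (by norm_num) 0
  have h2 : (5 / 7 * wI (9 / 4) 0) ^ 2 ≤ (wI (9 / 4) 1) ^ 2 := by
    apply pow_le_pow_left₀ _ h
    positivity
  nlinarith [sq_nonneg (wI (9 / 4) 0)]

lemma wt_even {N : ℕ} (b c : ℝ) (e : Ed N) (n : ℤ) : wt b c e (-n) = wt b c e n := by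
  rcases e with p | p
  · show (wI c (-n)) ^ 2 = (wI c n) ^ 2
    rw [wI_neg]
  · exact wI_neg b n

lemma wt_anti {N : ℕ} {b c : ℝ} (hb : 0 ≤ b) (hc : 0 ≤ c) (e : Ed N) {m n : ℤ} (h : |m| ≤ |n|) :
    wt b c e n ≤ wt b c e m := by
  rcases e with p | p
  · exact pow_le_pow_left₀ (wI_nonneg hc n) (wI_anti hc h) 2
  · exact wI_anti hb h

lemma wt_half {N : ℕ} (e : Ed N) : wt (5 / 4) (9 / 4) e 0 ≤ 2 * wt (5 / 4) (9 / 4) e 1 := by
  rcases e with p | p
  · exact diag_half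
  · exact side_half

lemma wt_zero_pos {N : ℕ} {b c : ℝ} (hb : 0 ≤ b) (hc : 0 ≤ c) (e : Ed N) : 0 < wt b c e 0 := by
  rcases e with p | p
  · exact pow_pos (wI_zero_pos hc) 2
  · exact wI_zero_pos hb

end Vale.Agent.P159.H353
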