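import Vale.Agent.P159.H353.Bij
import Vale.Agent.P159.H353.Wgt

/-!
Second moments of the heights.
-/

open MeasureTheory Filter Topology

namespace Vale.Agent.P159.H353

lemma Wh_zero_pos {N : ℕ} {b c : ℝ} (hb : 0 ≤ b) (hc : 0 ≤ c) :
    0 < Wh b c (fun _ : Fc N => (0 : ℤ)) := by
  unfold Wh
  refine Finset.prod_pos fun e _ => ?_
  have : cur (fun _ : Fc N => (0 : ℤ)) e = 0 := by simp [cur]
  rw [this]
  exact wt_zero_pos hb hc e

lemma hasSum_Wh {N : ℕ} {b c : ℝ} (hb : 0 ≤ b) (hc : 0 ≤ c) (v : Fc N) :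
    HasSum (fun h : Ht N v => Wh b c h.1) (ZT N b c 0) := by
  have h := ZT_heights hb hc v 0
  simpa using h

lemma ZT_pos {N : ℕ} {b c : ℝ} (hb : 0 ≤ b) (hc : 0 ≤ c) (v : Fc N) : 0 < ZT N b c 0 := by
  have h := hasSum_Wh hb hc v
  rw [← h.tsum_eq]
  exact h.summable.tsum_pos (fun k => Wh_nonneg hb k.1) ⟨fun _ => 0, rfl⟩ (Wh_zero_pos hb hc)

lemma cos_le_quad (y : ℝ) (hy : |y| ≤ 1) : Real.cos y ≤ 1 - y ^ 2 / 2 + y ^ 4 := by
  have h := Real.cos_bound hy
  rw [abs_le] at h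
  have h2 : |y| ^ 4 = y ^ 4 := by
    rw [show (4 : ℕ) = 2 * 2 by norm_num, pow_mul, pow_mul, sq_abs]
  rw [h2] at h
  nlinarith [h.2, pow_nonneg (sq_nonneg y) 2]

/-- second moments from a lower bound of the twisted partition function -/
theorem second_moment {N : ℕ} {b c : ℝ} (hb : 0 ≤ b) (hc : 0 ≤ c) (v : Fc N) (t : Ed N → ℝ)
    (K : ℝ) (hK : ∀ s : ℝ, 0 < s → s ≤ 1 →
      ZT N b c 0 * (1 - K * s ^ 2 / 2) ≤ ZT N b c (fun e => s * t e)) :
    Summable (fun h : Ht N v => Wh b c h.1 * (∑ e, t e * (cur h.1 e : ℝ)) ^ 2) ∧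
      ∑' h : Ht N v, Wh b c h.1 * (∑ e, t e * (cur h.1 e : ℝ)) ^ 2 ≤ K * ZT N b c 0 := by
  set X : Ht N v → ℝ := fun h => ∑ e, t e * (cur h.1 e : ℝ) with hX
  have h0 : ∀ h : Ht N v, 0 ≤ Wh b c h.1 * X h ^ 2 := fun h =>
    mul_nonneg (Wh_nonneg hb _) (sq_nonneg _)
  have key : ∀ F : Finset (Ht N v), ∑ h ∈ F, Wh b c h.1 * X h ^ 2 ≤ K * ZT N b c 0 := by
    intro F
    set C : ℝ := ∑ h ∈ F, Wh b c h.1 * (2 * X h ^ 4) with hC
    have hbd : ∀ s : ℝ, 0 < s → s ≤ 1 → (∀ h ∈ F, |s * X h| ≤ 1) →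
        ∑ h ∈ F, Wh b c h.1 * X h ^ 2 ≤ K * ZT N b c 0 + s ^ 2 * C := by
      intro s hs hs1 hsF
      have a1 := hasSum_Wh hb hc v
      have a2 := ZT_heights hb hc v (fun e => s * t e)
      have a3 := a1.sub a2
      have e1 : ∀ h : Ht N v, ∑ e, s * t e * (cur h.1 e : ℝ) = s * X h := by
        intro h
        rw [hX]
        simp only
        rw [Finset.mul_sum]
        exact Finset.sum_congr rfl fun e _ => by ring
      simp only [e1] at a3
      have a4 : ∑ h ∈ F, (Wh b c h.1 - Wh b c h.1 * Real.cos (s * X h)) ≤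
          ZT N b c 0 - ZT N b c (fun e => s * t e) := by
        refine sum_le_hasSum F (fun h _ => ?_) a3
        nlinarith [Wh_nonneg (b := b) (c := c) hb h.1, Real.cos_le_one (s * X h)]
      have a5 := hK s hs hs1
      have a6 : ∑ h ∈ F, (Wh b c h.1 * (s ^ 2 * X h ^ 2 / 2) - s ^ 4 * (Wh b c h.1 * X h ^ 4)) ≤
          ∑ h ∈ F, (Wh b c h.1 - Wh b c h.1 * Real.cos (s * X h)) := by
        refine Finset.sum_le_sum fun h hh => ?_
        have := cos_le_quad _ (hsF h hh)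
        have hw := Wh_nonneg (b := b) (c := c) hb h.1
        have h7 := mul_le_mul_of_nonneg_left this hw
        nlinarith
      have a7 : ∑ h ∈ F, (Wh b c h.1 * (s ^ 2 * X h ^ 2 / 2) - s ^ 4 * (Wh b c h.1 * X h ^ 4)) =
          s ^ 2 / 2 * (∑ h ∈ F, Wh b c h.1 * X h ^ 2 - s ^ 2 * C) := by
        rw [hC, Finset.mul_sum, ← Finset.sum_sub_distrib, Finset.mul_sum]
        exact Finset.sum_congr rfl fun h _ => by ring
      rw [a7] at a6
      have a8 : s ^ 2 / 2 * (∑ h ∈ F, Wh b c h.1 * X h ^ 2 - s ^ 2 * C) ≤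
          s ^ 2 / 2 * (K * ZT N b c 0) := by
        nlinarith
      have a9 : 0 < s ^ 2 / 2 := by positivity
      have := le_of_mul_le_mul_left a8 a9
      linarith
    have hev : ∀ᶠ s : ℝ in 𝓝[>] 0, ∑ h ∈ F, Wh b c h.1 * X h ^ 2 ≤ K * ZT N b c 0 + s ^ 2 * C := by
      have e1 : ∀ᶠ s : ℝ in 𝓝[>] 0, s ≤ 1 := by
        have : Set.Iio (1 : ℝ) ∈ 𝓝 (0 : ℝ) := Iio_mem_nhds one_pos
        filter_upwards [mem_nhdsWithin_of_mem_nhds this] with s hs
        exact le_of_lt hs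
      have e2 : ∀ h ∈ F, ∀ᶠ s : ℝ in 𝓝[>] 0, |s * X h| ≤ 1 := by
        intro h _
        have hc1 : Continuous fun s : ℝ => |s * X h| := by fun_prop
        have hc2 : Tendsto (fun s : ℝ => |s * X h|) (𝓝 0) (𝓝 |0 * X h|) := hc1.tendsto 0
        rw [zero_mul, abs_zero] at hc2
        have := hc2.eventually (Iio_mem_nhds (one_pos : (0 : ℝ) < 1))
        filter_upwards [mem_nhdsWithin_of_mem_nhds this] with s hs
        exact le_of_lt hs
      have e3 := (Finset.eventually_all F).2 e2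
      filter_upwards [e1, e3, self_mem_nhdsWithin] with s h1 h2 h3
      exact hbd s h3 h1 h2
    have hlim : Tendsto (fun s : ℝ => K * ZT N b c 0 + s ^ 2 * C) (𝓝[>] 0)
        (𝓝 (K * ZT N b c 0 + 0 ^ 2 * C)) := by
      have : Continuous fun s : ℝ => K * ZT N b c 0 + s ^ 2 * C := by fun_prop
      exact (this.tendsto 0).mono_left nhdsWithin_le_nhds
    have := ge_of_tendsto hlim hev
    simpa using this
  constructor
  · exact summable_of_sum_le h0 key
  · exact Real.tsum_le_of_sum_le h0 key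

/-- second moments from the Gaussian lower bound of the twisted partition function -/
theorem second_moment_gauss {N : ℕ} {b c : ℝ} (hb : 0 ≤ b) (hc : 0 ≤ c) (v : Fc N)
    (hG : ∀ t : Ed N → ℝ, ZT N b c 0 * Real.exp (-(1 / 2) * ∑ e, cpl b c e * (t e) ^ 2) ≤
      ZT N b c t) (t : Ed N → ℝ) :
    Summable (fun h : Ht N v => Wh b c h.1 * (∑ e, t e * (cur h.1 e : ℝ)) ^ 2) ∧
      ∑' h : Ht N v, Wh b c h.1 * (∑ e, t e * (cur h.1 e : ℝ)) ^ 2 ≤
        (∑ e, cpl b c e * (t e) ^ 2) * ZT N b c 0 := by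
  refine second_moment hb hc v t _ fun s _ _ => ?_
  refine le_trans (mul_le_mul_of_nonneg_left ?_ (ZT_pos hb hc v).le) (hG fun e => s * t e)
  have e1 : ∑ e, cpl b c e * (s * t e) ^ 2 = s ^ 2 * ∑ e, cpl b c e * (t e) ^ 2 := by
    rw [Finset.mul_sum]
    exact Finset.sum_congr rfl fun e _ => by ring
  rw [e1]
  have := Real.add_one_le_exp (-(1 / 2) * (s ^ 2 * ∑ e, cpl b c e * (t e) ^ 2))
  linarith

open scoped Classical in
/-- every height difference is a combination of currents -/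
lemma height_repr {N : ℕ} (v x : Fc N) : ∃ t : Ed N → ℝ, ∀ h : Fc N → ℤ,
    (h x : ℝ) - h v = ∑ e, t e * (cur h e : ℝ) := by
  have hN : 0 < N := by
    have := v.1.2
    omega
  set o : Fc N := (⟨0, hN⟩, ⟨0, hN⟩, false) with ho
  set P : Fc N → Prop := fun x => ∃ t : Ed N → ℝ, ∀ h : Fc N → ℤ,
    (h x : ℝ) - h o = ∑ e, t e * (cur h e : ℝ) with hP
  have hPe : ∀ e, P (lf e) ↔ P (rt e) := by
    intro e
    constructor
    · rintro ⟨t, ht⟩
      refine ⟨fun a => t a + if a = e then -1 else 0, fun h => ?_⟩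
      have h1 := ht h
      have : ∑ a, (t a + if a = e then -1 else 0) * (cur h a : ℝ) =
          ∑ a, t a * (cur h a : ℝ) - cur h e := by
        simp [add_mul, Finset.sum_add_distrib, sub_eq_add_neg]
      rw [this, ← h1]
      unfold cur
      push_cast
      ring
    · rintro ⟨t, ht⟩
      refine ⟨fun a => t a + if a = e then 1 else 0, fun h => ?_⟩
      have h1 := ht h
      have : ∑ a, (t a + if a = e then 1 else 0) * (cur h a : ℝ) =
          ∑ a, t a * (cur h a : ℝ) + cur h e := by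
        simp [add_mul, Finset.sum_add_distrib]
      rw [this, ← h1]
      unfold cur
      push_cast
      ring
  have hPo : P o := ⟨0, fun h => by simp⟩
  have hall : ∀ y, P y := by
    intro y
    have h1 := const_of_cur (fun z => if P z then (1 : ℤ) else 0) (fun e => by
      unfold cur
      simp only
      by_cases he : P (rt e)
      · rw [if_pos ((hPe e).2 he), if_pos he]
        norm_num
      · rw [if_neg (fun h' => he ((hPe e).1 h')), if_neg he]
        norm_num) hN y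
    by_contra hy
    have h2 : (if P y then (1 : ℤ) else 0) = if P o then (1 : ℤ) else 0 := h1
    rw [if_neg hy, if_pos hPo] at h2
    omega
  obtain ⟨t, ht⟩ := hall x
  obtain ⟨s, hs⟩ := hall v
  refine ⟨fun e => t e - s e, fun h => ?_⟩
  have h1 := ht h
  have h2 := hs h
  simp only [sub_mul, Finset.sum_sub_distrib]
  linarith

/-- second moments of the heights are finite -/
theorem summable_height_sq {N : ℕ} {b c : ℝ} (hb : 0 ≤ b) (hc : 0 ≤ c) (v : Fc N)
    (hG : ∀ t : Ed N → ℝ, ZT N b c 0 * Real.exp (-(1 / 2) * ∑ e, cpl b c e * (t e) ^ 2) ≤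
      ZT N b c t) (x : Fc N) :
    Summable fun h : Ht N v => Wh b c h.1 * (h.1 x : ℝ) ^ 2 := by
  obtain ⟨t, ht⟩ := height_repr v x
  refine (second_moment_gauss hb hc v hG t).1.congr fun h => ?_
  rw [← ht h.1, h.2]
  simp

end Vale.Agent.P159.H353
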