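import Vale.Agent.P159.H353.Dual

/-!
Heights with value `0` at a face correspond to divergence free currents.
-/

open MeasureTheory Filter Topology

namespace Vale.Agent.P159.H353

lemma sum_pick {α β : Type*} [Fintype α] [DecidableEq β] (g : α → β)
    (hg : Function.Injective g) (a : α) (f : α → ℤ) (b : β) (hb : g a = b) :
    ∑ x, (if g x = b then f x else 0) = f a := by
  rw [Finset.sum_eq_single a]
  · rw [if_pos hb]
  · intro x _ hx
    rw [if_neg]
    intro h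
    exact hx (hg (h.trans hb.symm))
  · intro h
    exact absurd (Finset.mem_univ _) h

/-- the divergence at an inner site -/
lemma dv_eq {N : ℕ} (n : Ed N → ℤ) (i j : ℕ) (hi : i + 1 < N) (hj : j + 1 < N) :
    dv n ((i : ℤ) + 1, (j : ℤ) + 1) =
      n (Sum.inl (⟨i + 1, hi⟩, ⟨j + 1, hj⟩)) - n (Sum.inl (⟨i, by omega⟩, ⟨j, by omega⟩)) +
      (n (Sum.inr (Sum.inl (⟨i, by omega⟩, ⟨j + 1, hj⟩))) -
        n (Sum.inr (Sum.inl (⟨i, by omega⟩, ⟨j, by omega⟩)))) +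
      (n (Sum.inr (Sum.inr (⟨i + 1, hi⟩, ⟨j, by omega⟩))) -
        n (Sum.inr (Sum.inr (⟨i, by omega⟩, ⟨j, by omega⟩)))) := by
  unfold dv
  rw [Finset.sum_add_distrib, Fintype.sum_sum_type, Fintype.sum_sum_type, Fintype.sum_sum_type,
    Fintype.sum_sum_type]
  rw [sum_pick (fun p : Fin N × Fin N => st (Sum.inl p : Ed N)) _ (⟨i + 1, hi⟩, ⟨j + 1, hj⟩)
    (fun p => n (Sum.inl p)) _ _]
  rw [sum_pick (fun p : Fin N × Fin N => en (Sum.inl p : Ed N)) _
    (⟨i, by omega⟩, ⟨j, by omega⟩) (fun p => -n (Sum.inl p)) _ _]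
  rw [sum_pick (fun p : Fin (N - 1) × Fin N => st (Sum.inr (Sum.inl p) : Ed N)) _
    (⟨i, by omega⟩, ⟨j + 1, hj⟩) (fun p => n (Sum.inr (Sum.inl p))) _ _]
  rw [sum_pick (fun p : Fin (N - 1) × Fin N => en (Sum.inr (Sum.inl p) : Ed N)) _
    (⟨i, by omega⟩, ⟨j, by omega⟩) (fun p => -n (Sum.inr (Sum.inl p))) _ _]
  rw [sum_pick (fun p : Fin N × Fin (N - 1) => st (Sum.inr (Sum.inr p) : Ed N)) _
    (⟨i + 1, hi⟩, ⟨j, by omega⟩) (fun p => n (Sum.inr (Sum.inr p))) _ _]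
  rw [sum_pick (fun p : Fin N × Fin (N - 1) => en (Sum.inr (Sum.inr p) : Ed N)) _
    (⟨i, by omega⟩, ⟨j, by omega⟩) (fun p => -n (Sum.inr (Sum.inr p))) _ _]
  · ring
  all_goals first
    | (rintro ⟨a, b⟩ ⟨c, d⟩ h
       simp only [st, en, Prod.mk.injEq, add_left_inj, Nat.cast_inj] at h
       ext
       · exact h.1
       · exact h.2)
    | (simp [st, en]; done)

lemma cur_add_const {N : ℕ} (h : Fc N → ℤ) (k : ℤ) : cur (fun x => h x + k) = cur h := by
  funext e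
  unfold cur
  ring

lemma const_of_cur {N : ℕ} (d : Fc N → ℤ) (hd : ∀ e, cur d e = 0) (hN : 0 < N) (x : Fc N) :
    d x = d (⟨0, hN⟩, ⟨0, hN⟩, false) := by
  have hD : ∀ (i j : ℕ) (hi : i < N) (hj : j < N),
      d (⟨i, hi⟩, ⟨j, hj⟩, true) = d (⟨i, hi⟩, ⟨j, hj⟩, false) := by
    intro i j hi hj
    have := hd (Sum.inl (⟨i, hi⟩, ⟨j, hj⟩))
    unfold cur at this
    simp only [lf, rt] at this
    omega
  have hV : ∀ (i j : ℕ) (hi : i + 1 < N) (hj : j < N),
      d (⟨i + 1, hi⟩, ⟨j, hj⟩, true) = d (⟨i, by omega⟩, ⟨j, hj⟩, false) := by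
    intro i j hi hj
    have := hd (Sum.inr (Sum.inl (⟨i, by omega⟩, ⟨j, hj⟩)))
    unfold cur at this
    simp only [lf, rt, lo, Vale.Agent.P159.H353.hi] at this
    omega
  have hH : ∀ (i j : ℕ) (hi : i < N) (hj : j + 1 < N),
      d (⟨i, hi⟩, ⟨j + 1, hj⟩, false) = d (⟨i, hi⟩, ⟨j, by omega⟩, true) := by
    intro i j hi hj
    have := hd (Sum.inr (Sum.inr (⟨i, hi⟩, ⟨j, by omega⟩)))
    unfold cur at this
    simp only [lf, rt, lo, Vale.Agent.P159.H353.hi] at this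
    omega
  have hL0 : ∀ (i : ℕ) (hi : i < N), d (⟨i, hi⟩, ⟨0, hN⟩, false) = d (⟨0, hN⟩, ⟨0, hN⟩, false) := by
    intro i
    induction i with
    | zero => intro hi; rfl
    | succ i ih =>
      intro hi
      rw [← hD, hV i 0 hi hN, ih]
  have hL : ∀ (j : ℕ) (i : ℕ) (hi : i < N) (hj : j < N),
      d (⟨i, hi⟩, ⟨j, hj⟩, false) = d (⟨0, hN⟩, ⟨0, hN⟩, false) := by
    intro j
    induction j with
    | zero => intro i hi hj; exact hL0 i hi
    | succ j ih =>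
      intro i hi hj
      rw [hH i j hi hj, hD, ih]
  obtain ⟨⟨i, hi⟩, ⟨j, hj⟩, b⟩ := x
  cases b
  · exact hL j i hi hj
  · rw [hD]
    exact hL j i hi hj

lemma cur_inj {N : ℕ} (v : Fc N) : Function.Injective fun h : Ht N v => cur h.1 := by
  intro h k hk
  have hN : 0 < N := by
    have := v.1.2
    omega
  have hd : ∀ e, cur (fun x => h.1 x - k.1 x) e = 0 := by
    intro e
    have := congrFun hk e
    simp only [cur] at this ⊢
    omega
  have h0 := const_of_cur _ hd hN v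
  have hv := h.2
  have kv := k.2
  apply Subtype.ext
  funext x
  have hx := const_of_cur _ hd hN x
  have e1 : h.1 v - k.1 v = h.1 x - k.1 x := h0.trans hx.symm
  omega

lemma mem_inner_iff {N : ℕ} (v : ℤ × ℤ) :
    v ∈ inner N ↔ ∃ i j : ℕ, i + 1 < N ∧ j + 1 < N ∧ v = ((i : ℤ) + 1, (j : ℤ) + 1) := by
  unfold inner
  rw [Finset.mem_Icc]
  constructor
  · rintro ⟨h1, h2⟩
    rw [Prod.le_def] at h1 h2
    simp only at h1 h2
    refine ⟨(v.1 - 1).toNat, (v.2 - 1).toNat, by omega, by omega, ?_⟩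
    ext
    · simp only; omega
    · simp only; omega
  · rintro ⟨i, j, hi, hj, rfl⟩
    constructor
    · rw [Prod.le_def]
      simp only
      omega
    · rw [Prod.le_def]
      simp only
      omega

lemma dv_cur {N : ℕ} (h : Fc N → ℤ) (v : inner N) : dv (cur h) v.1 = 0 := by
  obtain ⟨i, j, hi, hj, hv⟩ := (mem_inner_iff v.1).1 v.2
  rw [hv, dv_eq _ i j hi hj]
  unfold cur
  simp only [lf, rt, lo, Vale.Agent.P159.H353.hi]
  ring

/-- value at natural indices -/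
def nat2 {a b : ℕ} (f : Fin a × Fin b → ℤ) (i j : ℕ) : ℤ :=
  if h : i < a ∧ j < b then f (⟨i, h.1⟩, ⟨j, h.2⟩) else 0

lemma nat2_eq {a b : ℕ} (f : Fin a × Fin b → ℤ) (i j : ℕ) (hi : i < a) (hj : j < b) :
    nat2 f i j = f (⟨i, hi⟩, ⟨j, hj⟩) := by
  unfold nat2
  rw [dif_pos ⟨hi, hj⟩]

lemma cur_surj {N : ℕ} (v : Fc N) (n : Ed N → ℤ) (hn : ∀ w : inner N, dv n w.1 = 0) :
    ∃ h : Ht N v, cur h.1 = n := by
  set D : ℕ → ℕ → ℤ := nat2 fun p => n (Sum.inl p) with hD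
  set V : ℕ → ℕ → ℤ := nat2 fun p => n (Sum.inr (Sum.inl p)) with hV
  set Z : ℕ → ℕ → ℤ := nat2 fun p => n (Sum.inr (Sum.inr p)) with hZ
  have hdiv : ∀ i j : ℕ, i + 1 < N → j + 1 < N →
      D (i + 1) (j + 1) - D i j + (V i (j + 1) - V i j) + (Z (i + 1) j - Z i j) = 0 := by
    intro i j hi hj
    have hm : ((i : ℤ) + 1, (j : ℤ) + 1) ∈ inner N := (mem_inner_iff _).2 ⟨i, j, hi, hj, rfl⟩
    have h := hn ⟨_, hm⟩
    rw [dv_eq n i j hi hj] at h
    rw [hD, hV, hZ, nat2_eq _ _ _ hi hj, nat2_eq _ i j (by omega) (by omega),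
      nat2_eq _ i (j + 1) (by omega) hj, nat2_eq _ i j (by omega) (by omega),
      nat2_eq _ (i + 1) j hi (by omega), nat2_eq _ i j (by omega) (by omega)]
    exact h
  set L : ℕ → ℕ → ℤ := fun i j => (∑ a ∈ Finset.range i, (-V a 0 - D (a + 1) 0)) +
    ∑ c ∈ Finset.range j, (Z i c + D i c) with hL
  have hy : ∀ i j, L i (j + 1) - L i j = Z i j + D i j := by
    intro i j
    simp only [hL]
    rw [Finset.sum_range_succ]
    ring
  have hx : ∀ j i, i + 1 < N → j < N → L (i + 1) j - L i j = -V i j - D (i + 1) j := by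
    intro j
    induction j with
    | zero =>
      intro i hi hj
      simp only [hL, Finset.range_zero, Finset.sum_empty]
      rw [Finset.sum_range_succ]
      ring
    | succ j ih =>
      intro i hi hj
      have h1 := ih i hi (by omega)
      have h2 := hy i j
      have h3 := hy (i + 1) j
      have h4 := hdiv i j hi hj
      omega
  set h0 : Fc N → ℤ := fun x => L x.1.1 x.2.1.1 + if x.2.2 = true then D x.1.1 x.2.1.1 else 0
    with hh0
  have hc : cur h0 = n := by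
    funext e
    rcases e with ⟨⟨i, hi⟩, ⟨j, hj⟩⟩ | ⟨⟨i, hi⟩, ⟨j, hj⟩⟩ | ⟨⟨i, hi⟩, ⟨j, hj⟩⟩
    · have : D i j = n (Sum.inl (⟨i, hi⟩, ⟨j, hj⟩)) := nat2_eq _ _ _ hi hj
      simp [cur, lf, rt, hh0, this]
    · have : V i j = n (Sum.inr (Sum.inl (⟨i, hi⟩, ⟨j, hj⟩))) := nat2_eq _ _ _ hi hj
      have h1 := hx j i (by omega) hj
      simp only [cur, lf, rt, hh0, lo, Vale.Agent.P159.H353.hi, if_true]
      simp only [Bool.false_eq_true, if_false]
      rw [← this]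
      omega
    · have : Z i j = n (Sum.inr (Sum.inr (⟨i, hi⟩, ⟨j, hj⟩))) := nat2_eq _ _ _ hi hj
      have h1 := hy i j
      simp only [cur, lf, rt, hh0, lo, Vale.Agent.P159.H353.hi, if_true]
      simp only [Bool.false_eq_true, if_false]
      rw [← this]
      omega
  refine ⟨⟨fun x => h0 x + -h0 v, by simp⟩, ?_⟩
  rw [cur_add_const]
  exact hc

lemma summable_Wh {N : ℕ} {b c : ℝ} (hb : 0 ≤ b) (hc : 0 ≤ c) (v : Fc N) :
    Summable fun h : Ht N v => Wh b c h.1 :=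
  (summable_wprod hb hc).comp_injective (cur_inj v)

lemma Wh_nonneg {N : ℕ} {b c : ℝ} (hb : 0 ≤ b) (h : Fc N → ℤ) : 0 ≤ Wh b c h :=
  Finset.prod_nonneg fun e _ => wt_nonneg hb e _

/-- duality, complex form -/
theorem ZT_heights_complex {N : ℕ} {b c : ℝ} (hb : 0 ≤ b) (hc : 0 ≤ c) (v : Fc N)
    (t : Ed N → ℝ) :
    HasSum (fun h : Ht N v => ((Wh b c h.1 : ℝ) : ℂ) *
      ∏ e, (fourier (cur h.1 e) ((t e : ℝ) : T) : ℂ)) (ZT N b c t : ℂ) := by
  have h := ZT_currents hb hc t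
  have h2 := ((cur_inj v).hasSum_iff (f := fun n : Ed N → ℤ => if ∀ v : inner N, dv n v.1 = 0 then
      ((∏ e, wt b c e (n e) : ℝ) : ℂ) * ∏ e, (fourier (n e) ((t e : ℝ) : T) : ℂ) else 0)
      (a := (ZT N b c t : ℂ)) ?_).2 h
  · refine hs_congr h2 fun k => ?_
    simp only [Function.comp]
    rw [if_pos (fun w => dv_cur k.1 w)]
    rfl
  · intro n hn
    rw [if_neg]
    intro hw
    exact hn (cur_surj v n hw)

lemma fourier_coe (n : ℤ) (s : ℝ) :
    (fourier n ((s : ℝ) : T) : ℂ) = Complex.exp (((s * n : ℝ) : ℂ) * Complex.I) := by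
  rw [fourier_coe_apply]
  congr 1
  have : (Real.pi : ℂ) ≠ 0 := by exact_mod_cast Real.pi_ne_zero
  push_cast
  field_simp

/-- duality -/
theorem ZT_heights {N : ℕ} {b c : ℝ} (hb : 0 ≤ b) (hc : 0 ≤ c) (v : Fc N) (t : Ed N → ℝ) :
    HasSum (fun h : Ht N v => Wh b c h.1 * Real.cos (∑ e, t e * (cur h.1 e : ℝ)))
      (ZT N b c t) := by
  have h := Complex.hasSum_re (ZT_heights_complex hb hc v t)
  rw [Complex.ofReal_re] at h
  have e : (fun h : Ht N v => (((Wh b c h.1 : ℝ) : ℂ) *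
      ∏ e, (fourier (cur h.1 e) ((t e : ℝ) : T) : ℂ)).re) =
      fun h : Ht N v => Wh b c h.1 * Real.cos (∑ e, t e * (cur h.1 e : ℝ)) := by
    funext k
    simp only [fourier_coe]
    rw [← Complex.exp_sum, ← Finset.sum_mul, ← Complex.ofReal_sum, Complex.re_ofReal_mul,
      Complex.exp_ofReal_mul_I_re]
  rw [e] at h
  exact h

end Vale.Agent.P159.H353
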