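import Vale.Agent.P159.H353.TriDefs

/-!
Fourier series of `exp (b cos x)` and of its convolution with itself.
-/

open MeasureTheory Filter Topology

namespace Vale.Agent.P159.H353

lemma hs_congr {ι : Type*} {f g : ι → ℂ} {a : ℂ} (hf : HasSum f a) (h : ∀ n, f n = g n) :
    HasSum g a := by
  have : f = g := funext h
  rwa [this] at hf

/-- the binomial coefficient `C(2k, k+|n|)` -/
def cb (k : ℕ) (n : ℤ) : ℕ := (2 * k).choose (k + n.natAbs)

lemma cb_neg (k : ℕ) (n : ℤ) : cb k (-n) = cb k n := by simp [cb]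

lemma cb_shift (k m : ℕ) (hm : m ≤ 2 * k) : cb k ((m : ℤ) - k) = (2 * k).choose m := by
  unfold cb
  rcases le_total k m with h | h
  · congr 1
    omega
  · rw [← Nat.choose_symm_of_eq_add (n := 2 * k) (a := m) (b := k + ((m : ℤ) - k).natAbs)]
    omega

lemma cb_zero_of (k : ℕ) (n : ℤ) (h : n ∉ Finset.Icc (-(k : ℤ)) k) : cb k n = 0 := by
  unfold cb
  apply Nat.choose_eq_zero_of_lt
  rw [Finset.mem_Icc] at h
  omega

lemma sum_cb (z : ℂ) (hz : z ≠ 0) (k : ℕ) :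
    ∑ n ∈ Finset.Icc (-(k : ℤ)) k, (cb k n : ℂ) * z ^ n = z ^ (-(k : ℤ)) * (1 + z) ^ (2 * k) := by
  rw [add_comm 1 z, add_pow, Finset.mul_sum]
  symm
  refine Finset.sum_nbij' (fun m : ℕ => (m : ℤ) - k) (fun n : ℤ => (n + k).toNat) ?_ ?_ ?_ ?_ ?_
  · intro m hm
    rw [Finset.mem_range] at hm
    rw [Finset.mem_Icc]
    omega
  · intro n hn
    rw [Finset.mem_Icc] at hn
    rw [Finset.mem_range]
    omega
  · intro m hm
    simp
  · intro n hn
    rw [Finset.mem_Icc] at hn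
    omega
  · intro m hm
    rw [Finset.mem_range] at hm
    rw [cb_shift k m (by omega), one_pow, mul_one, sub_eq_add_neg, zpow_add₀ hz, zpow_natCast]
    ring

lemma hasSum_cb (z : ℂ) (hz : z ≠ 0) (k : ℕ) :
    HasSum (fun n : ℤ => (cb k n : ℂ) * z ^ n) (z ^ (-(k : ℤ)) * (1 + z) ^ (2 * k)) := by
  rw [← sum_cb z hz k]
  apply hasSum_sum_of_ne_finset_zero
  intro n hn
  rw [cb_zero_of k n hn]
  simp

/-- the terms of the double series -/
noncomputable def aw (b : ℝ) (k : ℕ) (n : ℤ) : ℝ := (b / 2) ^ k / (k.factorial : ℝ) * (cb k n : ℝ)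

lemma wI_eq (b : ℝ) (n : ℤ) : wI b n = Real.exp (-b) * ∑' k : ℕ, aw b k n := rfl

lemma aw_nonneg {b : ℝ} (hb : 0 ≤ b) (k : ℕ) (n : ℤ) : 0 ≤ aw b k n := by
  unfold aw; positivity

lemma hasSum_aw_row (b : ℝ) (k : ℕ) :
    HasSum (fun n : ℤ => aw b k n) ((2 * b) ^ k / (k.factorial : ℝ)) := by
  have h := hasSum_cb 1 one_ne_zero k
  simp only [one_zpow, mul_one, one_mul] at h
  have h2 : HasSum (fun n : ℤ => (cb k n : ℝ)) (4 ^ k) := by
    have h3 := Complex.hasSum_re h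
    have e : ((1 + 1 : ℂ) ^ (2 * k)).re = 4 ^ k := by
      rw [pow_mul, show (1 + 1 : ℂ) ^ 2 = ((4 : ℝ) : ℂ) by push_cast; norm_num,
        ← Complex.ofReal_pow, Complex.ofReal_re]
    rw [e] at h3
    simpa using h3
  have h4 := h2.mul_left ((b / 2) ^ k / (k.factorial : ℝ))
  have e : (b / 2) ^ k / (k.factorial : ℝ) * 4 ^ k = (2 * b) ^ k / (k.factorial : ℝ) := by
    rw [div_mul_eq_mul_div, ← mul_pow]
    congr 2
    ring
  rw [e] at h4
  exact h4

lemma summable_aw {b : ℝ} (hb : 0 ≤ b) : Summable fun p : ℕ × ℤ => aw b p.1 p.2 := by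
  refine (summable_prod_of_nonneg (fun p => aw_nonneg hb p.1 p.2)).2 ⟨fun k => ?_, ?_⟩
  · exact (hasSum_aw_row b k).summable
  · have : (fun k : ℕ => ∑' n : ℤ, aw b k n) = fun k : ℕ => (2 * b) ^ k / (k.factorial : ℝ) :=
      funext fun k => (hasSum_aw_row b k).tsum_eq
    rw [this]
    exact Real.summable_pow_div_factorial _

lemma summable_aw_col {b : ℝ} (hb : 0 ≤ b) (n : ℤ) : Summable fun k : ℕ => aw b k n := by
  have h := (summable_aw hb).prod_symm
  exact h.prod_factor n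

lemma summable_wI {b : ℝ} (hb : 0 ≤ b) : Summable (wI b) := by
  have h := (summable_aw hb).prod_symm.prod.mul_left (Real.exp (-b))
  refine h.congr fun n => ?_
  rw [wI_eq]
  rfl

lemma wI_nonneg {b : ℝ} (hb : 0 ≤ b) (n : ℤ) : 0 ≤ wI b n := by
  rw [wI_eq]
  exact mul_nonneg (Real.exp_pos _).le (tsum_nonneg fun k => aw_nonneg hb k n)

lemma wI_neg (b : ℝ) (n : ℤ) : wI b (-n) = wI b n := by
  rw [wI_eq, wI_eq]
  simp only [aw, cb_neg]

lemma fourier_zpow (n : ℤ) (x : T) : (fourier n x : ℂ) = (fourier 1 x : ℂ) ^ n := by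
  rw [fourier_apply, fourier_one, AddCircle.toCircle_zsmul]
  push_cast
  rfl

lemma fourier_one_ne (x : T) : (fourier 1 x : ℂ) ≠ 0 := by
  rw [fourier_one]
  exact Circle.coe_ne_zero _

lemma cosT_eq (x : T) : (cosT x : ℂ) = ((fourier 1 x : ℂ) + (fourier 1 x : ℂ)⁻¹) / 2 := by
  induction x using QuotientAddGroup.induction_on with
  | H y =>
    have h1 : cosT ((y : ℝ) : T) = Real.cos y := Real.Angle.cos_coe y
    have h2 : (fourier 1 ((y : ℝ) : T) : ℂ) = Complex.exp (y * Complex.I) := by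
      rw [fourier_coe_apply]
      congr 1
      have : (Real.pi : ℂ) ≠ 0 := by exact_mod_cast Real.pi_ne_zero
      push_cast
      field_simp
    have h3 : (QuotientAddGroup.mk y : T) = ((y : ℝ) : T) := rfl
    rw [h3, h1, h2, ← Complex.exp_neg, Complex.ofReal_cos, Complex.cos]
    congr 3
    ring

lemma one_add_cos_pow (x : T) (k : ℕ) :
    (fourier 1 x : ℂ) ^ (-(k : ℤ)) * (1 + (fourier 1 x : ℂ)) ^ (2 * k) =
      2 ^ k * ((1 + cosT x : ℝ) : ℂ) ^ k := by
  have hz := fourier_one_ne x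
  push_cast
  rw [cosT_eq, zpow_neg, zpow_natCast, pow_mul, ← inv_pow, ← mul_pow, ← mul_pow]
  congr 1
  field_simp
  ring

/-- Fourier series of `exp (b cos x)` -/
theorem hasSum_gS {b : ℝ} (hb : 0 ≤ b) (x : T) :
    HasSum (fun n : ℤ => (wI b n : ℂ) * (fourier n x : ℂ)) (gS b x : ℂ) := by
  set z : ℂ := (fourier 1 x : ℂ) with hz
  have hz0 : z ≠ 0 := fourier_one_ne x
  have hn : ‖z‖ = 1 := by rw [hz, fourier_one]; exact Circle.norm_coe _
  have hsum : Summable fun p : ℕ × ℤ => (aw b p.1 p.2 : ℂ) * z ^ p.2 := by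
    refine Summable.of_norm ((summable_aw hb).congr fun p => ?_)
    rw [norm_mul, norm_zpow, hn, one_zpow, mul_one, Complex.norm_real, Real.norm_eq_abs,
      abs_of_nonneg (aw_nonneg hb _ _)]
  have hrow : ∀ k : ℕ, HasSum (fun n : ℤ => (aw b k n : ℂ) * z ^ n)
      (((b * (1 + cosT x)) ^ k / (k.factorial : ℝ) : ℝ) : ℂ) := by
    intro k
    have h := (hasSum_cb z hz0 k).mul_left ((((b / 2) ^ k / (k.factorial : ℝ) : ℝ)) : ℂ)
    rw [hz, one_add_cos_pow x k] at h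
    have e : ((((b / 2) ^ k / (k.factorial : ℝ) : ℝ)) : ℂ) * (2 ^ k * ((1 + cosT x : ℝ) : ℂ) ^ k) =
        (((b * (1 + cosT x)) ^ k / (k.factorial : ℝ) : ℝ) : ℂ) := by
      push_cast
      rw [div_pow, mul_pow]
      field_simp
    rw [e] at h
    refine hs_congr h fun n => ?_
    unfold aw
    push_cast
    ring
  have h1 : ∑' p : ℕ × ℤ, (aw b p.1 p.2 : ℂ) * z ^ p.2 =
      ((Real.exp (b * (1 + cosT x)) : ℝ) : ℂ) := by
    rw [hsum.tsum_prod]
    have e1 : ∀ k : ℕ, ∑' n : ℤ, (aw b k n : ℂ) * z ^ n =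
        (((b * (1 + cosT x)) ^ k / (k.factorial : ℝ) : ℝ) : ℂ) := fun k => (hrow k).tsum_eq
    simp only [e1]
    rw [← Complex.ofReal_tsum]
    congr 1
    rw [Real.exp_eq_exp_ℝ, NormedSpace.exp_eq_tsum_div]
  have h2 : HasSum (fun n : ℤ => ∑' k : ℕ, (aw b k n : ℂ) * z ^ n)
      ((Real.exp (b * (1 + cosT x)) : ℝ) : ℂ) := by
    have h3 : Summable fun p : ℤ × ℕ => (aw b p.2 p.1 : ℂ) * z ^ p.1 := hsum.prod_symm
    have h4 : ∑' p : ℤ × ℕ, (aw b p.2 p.1 : ℂ) * z ^ p.1 =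
        ((Real.exp (b * (1 + cosT x)) : ℝ) : ℂ) := by
      rw [← h1, ← (Equiv.prodComm ℤ ℕ).tsum_eq]
      rfl
    rw [← h4, h3.tsum_prod]
    exact h3.prod.hasSum
  have h5 := h2.mul_left ((Real.exp (-b) : ℝ) : ℂ)
  have e2 : ((Real.exp (-b) : ℝ) : ℂ) * ((Real.exp (b * (1 + cosT x)) : ℝ) : ℂ) = (gS b x : ℂ) := by
    rw [← Complex.ofReal_mul, ← Real.exp_add]
    unfold gS
    congr 2
    ring
  rw [e2] at h5
  refine hs_congr h5 fun n => ?_
  rw [tsum_mul_right, wI_eq, fourier_zpow n x, ← hz]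
  push_cast
  ring

/-- orthogonality -/
lemma integral_fourier (n : ℤ) :
    ∫ x : T, (fourier n x : ℂ) ∂AddCircle.haarAddCircle = if n = 0 then 1 else 0 := by
  split_ifs with h
  · subst h
    simp only [fourier_zero]
    simp
  · exact integral_eq_zero_of_add_right_eq_neg (fourier_add_half_inv_index h Real.two_pi_pos)

lemma fourier_norm_one (n : ℤ) (x : T) : ‖(fourier n x : ℂ)‖ = 1 := by
  rw [fourier_apply]; exact Circle.norm_coe _

lemma fourier_add_arg (n : ℤ) (x y : T) :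
    (fourier n (x + y) : ℂ) = (fourier n x : ℂ) * (fourier n y : ℂ) := by
  rw [fourier_apply, fourier_apply, fourier_apply, zsmul_add, AddCircle.toCircle_add]
  push_cast
  rfl

lemma fourier_neg_arg (n : ℤ) (x : T) : (fourier n (-x) : ℂ) = (fourier (-n) x : ℂ) := by
  rw [fourier_apply, fourier_apply, zsmul_neg, neg_zsmul]

lemma gS_cont (b : ℝ) : Continuous (gS b) := by
  unfold gS
  exact Real.continuous_exp.comp (continuous_const.mul Real.Angle.continuous_cos)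

/-- Fourier series of the convolution of `exp (c cos x)` with itself -/
theorem hasSum_gD {c : ℝ} (hc : 0 ≤ c) (x : T) :
    HasSum (fun n : ℤ => ((wI c n ^ 2 : ℝ) : ℂ) * (fourier n x : ℂ)) (gD c x : ℂ) := by
  have hs := summable_wI hc
  have hs2 : Summable fun p : ℤ × ℤ => wI c p.1 * wI c p.2 :=
    hs.mul_of_nonneg hs (wI_nonneg hc) (wI_nonneg hc)
  have h1 : ∀ ζ : T, ((gS c ζ * gS c (x - ζ) : ℝ) : ℂ) =
      ∑' p : ℤ × ℤ, ((wI c p.1 * wI c p.2 : ℝ) : ℂ) * ((fourier p.1 ζ : ℂ) *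
        (fourier p.2 (x - ζ) : ℂ)) := by
    intro ζ
    have a1 := hasSum_gS hc ζ
    have a2 := hasSum_gS hc (x - ζ)
    have hn : ∀ y : T, Summable fun n : ℤ => ‖(wI c n : ℂ) * (fourier n y : ℂ)‖ := by
      intro y
      refine hs.congr fun n => ?_
      rw [norm_mul, fourier_norm_one, mul_one, Complex.norm_real, Real.norm_eq_abs,
        abs_of_nonneg (wI_nonneg hc n)]
    rw [Complex.ofReal_mul, ← a1.tsum_eq, ← a2.tsum_eq,
      tsum_mul_tsum_of_summable_norm (hn ζ) (hn (x - ζ))]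
    refine tsum_congr fun p => ?_
    push_cast
    ring
  have h2 : (gD c x : ℂ) = ∫ ζ : T, ∑' p : ℤ × ℤ, ((wI c p.1 * wI c p.2 : ℝ) : ℂ) *
      ((fourier p.1 ζ : ℂ) * (fourier p.2 (x - ζ) : ℂ)) ∂AddCircle.haarAddCircle := by
    unfold gD
    rw [← integral_complex_ofReal]
    exact integral_congr_ae (Eventually.of_forall fun ζ => h1 ζ)
  have hcont : ∀ p : ℤ × ℤ, Continuous fun ζ : T => ((wI c p.1 * wI c p.2 : ℝ) : ℂ) *
      ((fourier p.1 ζ : ℂ) * (fourier p.2 (x - ζ) : ℂ)) := by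
    intro p
    refine continuous_const.mul (((fourier p.1).continuous).mul
      ((fourier p.2).continuous.comp (continuous_const.sub continuous_id)))
  have hnorm : ∀ (p : ℤ × ℤ) (ζ : T), ‖((wI c p.1 * wI c p.2 : ℝ) : ℂ) *
      ((fourier p.1 ζ : ℂ) * (fourier p.2 (x - ζ) : ℂ))‖ = wI c p.1 * wI c p.2 := by
    intro p ζ
    rw [norm_mul, norm_mul, fourier_norm_one, fourier_norm_one, mul_one, mul_one,
      Complex.norm_real, Real.norm_eq_abs,
      abs_of_nonneg (mul_nonneg (wI_nonneg hc _) (wI_nonneg hc _))]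
  have hint : ∀ p : ℤ × ℤ, ∫ ζ : T, ((wI c p.1 * wI c p.2 : ℝ) : ℂ) *
      ((fourier p.1 ζ : ℂ) * (fourier p.2 (x - ζ) : ℂ)) ∂AddCircle.haarAddCircle =
      if p.1 = p.2 then ((wI c p.1 ^ 2 : ℝ) : ℂ) * (fourier p.1 x : ℂ) else 0 := by
    intro p
    have e : ∀ ζ : T, ((wI c p.1 * wI c p.2 : ℝ) : ℂ) *
      ((fourier p.1 ζ : ℂ) * (fourier p.2 (x - ζ) : ℂ)) =
      (((wI c p.1 * wI c p.2 : ℝ) : ℂ) * (fourier p.2 x : ℂ)) *
        (fourier (p.1 - p.2) ζ : ℂ) := by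
      intro ζ
      rw [sub_eq_add_neg x ζ, fourier_add_arg, fourier_neg_arg, sub_eq_add_neg, fourier_add]
      ring
    simp only [e]
    rw [integral_const_mul, integral_fourier]
    by_cases h : p.1 = p.2
    · rw [if_pos h, if_pos (by omega), ← h]
      push_cast
      ring
    · rw [if_neg h, if_neg (by omega), mul_zero]
  have h3 : HasSum (fun p : ℤ × ℤ => if p.1 = p.2 then
      ((wI c p.1 ^ 2 : ℝ) : ℂ) * (fourier p.1 x : ℂ) else 0) (gD c x : ℂ) := by
    rw [h2]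
    have := hasSum_integral_of_summable_integral_norm (μ := AddCircle.haarAddCircle)
      (F := fun (p : ℤ × ℤ) (ζ : T) => ((wI c p.1 * wI c p.2 : ℝ) : ℂ) *
      ((fourier p.1 ζ : ℂ) * (fourier p.2 (x - ζ) : ℂ)))
      (fun p => ((hcont p).integrable_of_hasCompactSupport
        (HasCompactSupport.of_compactSpace _))) ?_
    · simp only [hint] at this
      exact this
    · simp only [hnorm]
      refine hs2.congr fun p => ?_
      simp
  have hinj : Function.Injective fun n : ℤ => (n, n) := fun a b h => (Prod.mk.inj h).1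
  have h4 := (hinj.hasSum_iff (f := fun p : ℤ × ℤ => if p.1 = p.2 then
      ((wI c p.1 ^ 2 : ℝ) : ℂ) * (fourier p.1 x : ℂ) else 0) (a := (gD c x : ℂ)) ?_).2 h3
  · refine hs_congr h4 fun n => ?_
    simp
  · rintro ⟨m, n⟩ hp
    have : m ≠ n := by
      rintro rfl
      exact hp ⟨m, rfl⟩
    simp [this]

end Vale.Agent.P159.H353
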