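import Vale.Agent.P159.H353.ProdSum
import Vale.Agent.P159.H353.Coef

/-!
Expansion of the twisted partition function in divergence free currents.
-/

open MeasureTheory Filter Topology

namespace Vale.Agent.P159.H353

/-- divergence of a current at a site -/
def dv {N : ℕ} (n : Ed N → ℤ) (v : ℤ × ℤ) : ℤ :=
  ∑ e, ((if st e = v then n e else 0) + (if en e = v then -n e else 0))

lemma fourier_zero_arg (n : ℤ) : (fourier n (0 : T) : ℂ) = 1 := by
  rw [fourier_apply, smul_zero, AddCircle.toCircle_zero]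
  rfl

lemma fourier_ext {N : ℕ} (θ : inner N → T) (x : ℤ × ℤ) (k : ℤ) :
    (fourier k (ext θ x) : ℂ) = ∏ v : inner N, (fourier (if x = v.1 then k else 0) (θ v) : ℂ) := by
  unfold ext
  split_ifs with h
  · rw [Finset.prod_eq_single (⟨x, h⟩ : inner N)]
    · simp
    · intro v _ hv
      have : x ≠ v.1 := fun hx => hv (Subtype.ext hx.symm)
      rw [if_neg this]
      simp
    · intro h'
      exact absurd (Finset.mem_univ _) h'
  · rw [fourier_zero_arg]
    symm
    apply Finset.prod_eq_one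
    intro v _
    have : x ≠ v.1 := fun hx => h (hx ▸ v.2)
    rw [if_neg this]
    simp

lemma fourier_sum_ix {ι : Type*} (s : Finset ι) (k : ι → ℤ) (x : T) :
    ∏ i ∈ s, (fourier (k i) x : ℂ) = (fourier (∑ i ∈ s, k i) x : ℂ) := by
  classical
  induction s using Finset.induction_on with
  | empty => simp
  | insert a s ha ih => rw [Finset.prod_insert ha, Finset.sum_insert ha, fourier_add, ih]

lemma prod_fourier_dth {N : ℕ} (θ : inner N → T) (n : Ed N → ℤ) :
    ∏ e, (fourier (n e) (dth θ e) : ℂ) = ∏ v : inner N, (fourier (dv n v.1) (θ v) : ℂ) := by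
  have h1 : ∀ e, (fourier (n e) (dth θ e) : ℂ) = ∏ v : inner N,
      ((fourier ((if st e = v.1 then n e else 0) + (if en e = v.1 then -n e else 0)) (θ v)) : ℂ) := by
    intro e
    unfold dth
    rw [sub_eq_add_neg, fourier_add_arg, fourier_neg_arg, fourier_ext, fourier_ext,
      ← Finset.prod_mul_distrib]
    refine Finset.prod_congr rfl fun v _ => ?_
    rw [fourier_add]
  simp only [h1]
  rw [Finset.prod_comm]
  refine Finset.prod_congr rfl fun v _ => ?_
  rw [fourier_sum_ix]
  rfl

lemma integral_prod_fourier {N : ℕ} (m : inner N → ℤ) :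
    ∫ θ : inner N → T, ∏ v : inner N, (fourier (m v) (θ v) : ℂ) ∂torusHaar (inner N) =
      if ∀ v, m v = 0 then 1 else 0 := by
  unfold torusHaar
  rw [integral_fintype_prod_eq_prod (μ := fun _ : inner N => (AddCircle.haarAddCircle : Measure T))
    (fun v => fun x : T => (fourier (m v) x : ℂ))]
  simp only [integral_fourier]
  split_ifs with h
  · apply Finset.prod_eq_one
    intro v _
    rw [if_pos (h v)]
  · push Not at h
    obtain ⟨v, hv⟩ := h
    apply Finset.prod_eq_zero (Finset.mem_univ v)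
    rw [if_neg hv]

lemma wt_nonneg {N : ℕ} {b c : ℝ} (hb : 0 ≤ b) (e : Ed N) (n : ℤ) : 0 ≤ wt b c e n := by
  rcases e with p | p
  · exact sq_nonneg _
  · exact wI_nonneg hb n

lemma summable_wt {N : ℕ} {b c : ℝ} (hb : 0 ≤ b) (hc : 0 ≤ c) (e : Ed N) :
    Summable fun n => wt b c e n := by
  rcases e with p | p
  · have hs := summable_wI hc
    have hs2 : Summable fun p : ℤ × ℤ => wI c p.1 * wI c p.2 :=
      hs.mul_of_nonneg hs (wI_nonneg hc) (wI_nonneg hc)
    have hinj : Function.Injective fun n : ℤ => (n, n) := fun a b h => (Prod.mk.inj h).1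
    refine (hs2.comp_injective hinj).congr fun n => ?_
    show _ = (wI c n) ^ 2
    simp [sq]
  · exact summable_wI hb

lemma norm_wt {N : ℕ} {b c : ℝ} (hb : 0 ≤ b) (e : Ed N) (n : ℤ) :
    ‖(wt b c e n : ℂ)‖ = wt b c e n := by
  rw [Complex.norm_real, Real.norm_eq_abs, abs_of_nonneg (wt_nonneg hb e n)]

lemma summable_wprod {N : ℕ} {b c : ℝ} (hb : 0 ≤ b) (hc : 0 ≤ c) :
    Summable fun n : Ed N → ℤ => ∏ e, wt b c e (n e) := by
  have h := (prod_tsum_all ℤ (Ed N) (fun e n => (wt b c e n : ℂ)) fun e =>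
    (summable_wt hb hc e).congr fun n => (norm_wt hb e n).symm).1
  refine h.congr fun n => ?_
  rw [norm_prod]
  exact Finset.prod_congr rfl fun e _ => norm_wt hb e (n e)

lemma hasSum_gE {N : ℕ} {b c : ℝ} (hb : 0 ≤ b) (hc : 0 ≤ c) (e : Ed N) (x : T) :
    HasSum (fun n : ℤ => (wt b c e n : ℂ) * (fourier n x : ℂ)) (gE b c e x : ℂ) := by
  rcases e with p | p
  · exact hasSum_gD hc x
  · exact hasSum_gS hb x

lemma ext_cont {S : Finset (ℤ × ℤ)} (x : ℤ × ℤ) : Continuous fun θ : S → T => ext θ x := by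
  unfold ext
  by_cases h : x ∈ S
  · simp only [dif_pos h]
    exact continuous_apply _
  · simp only [dif_neg h]
    exact continuous_const

lemma dth_cont {N : ℕ} (e : Ed N) : Continuous fun θ : inner N → T => dth θ e :=
  (ext_cont _).sub (ext_cont _)

/-- the expansion in currents -/
theorem ZT_currents {N : ℕ} {b c : ℝ} (hb : 0 ≤ b) (hc : 0 ≤ c) (t : Ed N → ℝ) :
    HasSum (fun n : Ed N → ℤ => if ∀ v : inner N, dv n v.1 = 0 then
      ((∏ e, wt b c e (n e) : ℝ) : ℂ) * ∏ e, (fourier (n e) ((t e : ℝ) : T) : ℂ) else 0)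
      (ZT N b c t : ℂ) := by
  have hps : ∀ θ : inner N → T, ((∏ e, gE b c e (dth θ e + ((t e : ℝ) : T)) : ℝ) : ℂ) =
      ∑' n : Ed N → ℤ, ∏ e, ((wt b c e (n e) : ℂ) *
        (fourier (n e) (dth θ e + ((t e : ℝ) : T)) : ℂ)) := by
    intro θ
    have h := (prod_tsum_all ℤ (Ed N) (fun e n => (wt b c e n : ℂ) *
      (fourier n (dth θ e + ((t e : ℝ) : T)) : ℂ)) fun e =>
      (summable_wt hb hc e).congr fun n => by
        rw [norm_mul, fourier_norm_one, mul_one, norm_wt hb]).2
    rw [h]
    push_cast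
    refine Finset.prod_congr rfl fun e _ => ?_
    exact ((hasSum_gE hb hc e _).tsum_eq).symm
  have h2 : (ZT N b c t : ℂ) = ∫ θ : inner N → T, ∑' n : Ed N → ℤ,
      ∏ e, ((wt b c e (n e) : ℂ) * (fourier (n e) (dth θ e + ((t e : ℝ) : T)) : ℂ))
        ∂torusHaar (inner N) := by
    unfold ZT
    rw [← integral_complex_ofReal]
    exact integral_congr_ae (Eventually.of_forall fun θ => hps θ)
  have hcont : ∀ n : Ed N → ℤ, Continuous fun θ : inner N → T =>
      ∏ e, ((wt b c e (n e) : ℂ) * (fourier (n e) (dth θ e + ((t e : ℝ) : T)) : ℂ)) := by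
    intro n
    refine continuous_finsetProd _ fun e _ => ?_
    exact continuous_const.mul ((fourier (n e)).continuous.comp
      ((dth_cont e).add continuous_const))
  have hnorm : ∀ (n : Ed N → ℤ) (θ : inner N → T),
      ‖∏ e, ((wt b c e (n e) : ℂ) * (fourier (n e) (dth θ e + ((t e : ℝ) : T)) : ℂ))‖ =
        ∏ e, wt b c e (n e) := by
    intro n θ
    rw [norm_prod]
    refine Finset.prod_congr rfl fun e _ => ?_
    rw [norm_mul, fourier_norm_one, mul_one, norm_wt hb]
  haveI : IsProbabilityMeasure (torusHaar (inner N)) := by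
    unfold torusHaar; infer_instance
  have hint : ∀ n : Ed N → ℤ, ∫ θ : inner N → T,
      ∏ e, ((wt b c e (n e) : ℂ) * (fourier (n e) (dth θ e + ((t e : ℝ) : T)) : ℂ))
        ∂torusHaar (inner N) = if ∀ v : inner N, dv n v.1 = 0 then
      ((∏ e, wt b c e (n e) : ℝ) : ℂ) * ∏ e, (fourier (n e) ((t e : ℝ) : T) : ℂ) else 0 := by
    intro n
    have e1 : ∀ θ : inner N → T,
        ∏ e, ((wt b c e (n e) : ℂ) * (fourier (n e) (dth θ e + ((t e : ℝ) : T)) : ℂ)) =
        (((∏ e, wt b c e (n e) : ℝ) : ℂ) * ∏ e, (fourier (n e) ((t e : ℝ) : T) : ℂ)) *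
          ∏ v : inner N, (fourier (dv n v.1) (θ v) : ℂ) := by
      intro θ
      rw [← prod_fourier_dth, Finset.prod_mul_distrib]
      simp only [fourier_add_arg]
      rw [Finset.prod_mul_distrib]
      push_cast
      ring
    simp only [e1]
    rw [integral_const_mul, integral_prod_fourier]
    split_ifs <;> simp
  have := hasSum_integral_of_summable_integral_norm (μ := torusHaar (inner N))
    (F := fun (n : Ed N → ℤ) (θ : inner N → T) =>
      ∏ e, ((wt b c e (n e) : ℂ) * (fourier (n e) (dth θ e + ((t e : ℝ) : T)) : ℂ)))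
    (fun n => ((hcont n).integrable_of_hasCompactSupport
        (HasCompactSupport.of_compactSpace _))) ?_
  · rw [h2]
    simp only [hint] at this
    exact this
  · simp only [hnorm]
    refine (summable_wprod hb hc).congr fun n => ?_
    simp

end Vale.Agent.P159.H353
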