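import Vale.Agent.P159.MathlibUsed

/-!
Products of absolutely convergent series over a finite index set.
-/

open Filter Topology

namespace Vale.Agent.P159.H353

/-- the statement for the index type `E` -/
def PS (ι : Type) (E : Type) [Fintype E] : Prop :=
  ∀ a : E → ι → ℂ, (∀ e, Summable fun n => ‖a e n‖) →
      (Summable fun n : E → ι => ‖∏ e, a e (n e)‖) ∧
        ∑' n : E → ι, ∏ e, a e (n e) = ∏ e, ∑' k, a e k

theorem PS_equiv (ι : Type) {α β : Type} [Fintype α] [Fintype β] (e : α ≃ β) (ih : PS ι α) :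
    PS ι β := by
  intro a ha
  have h := ih (fun x => a (e x)) (fun x => ha (e x))
  have hE : ∀ n : β → ι, ∏ x : α, a (e x) (n (e x)) = ∏ y, a y (n y) := fun n =>
    e.prod_comp (fun y => a y (n y))
  set φ : (β → ι) ≃ (α → ι) := Equiv.arrowCongr e.symm (Equiv.refl ι) with hφ
  have hre : ∀ n : β → ι, ∏ x, a (e x) (φ n x) = ∏ y, a y (n y) := fun n => hE n
  constructor
  · have h1 := φ.summable_iff.2 h.1
    refine h1.congr fun n => ?_
    show ‖∏ x, a (e x) (φ n x)‖ = _
    rw [hre n]
  · have h2 := φ.tsum_eq (fun m : α → ι => ∏ x, a (e x) (m x))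
    have h3 : ∏ x : α, ∑' k, a (e x) k = ∏ y, ∑' k, a y k :=
      e.prod_comp (fun y => ∑' k, a y k)
    rw [h.2, h3] at h2
    rw [← h2]
    exact tsum_congr fun n => (hre n).symm

theorem PS_empty (ι : Type) : PS ι PEmpty := by
  intro a ha
  constructor
  · exact (hasSum_fintype _).summable
  · simp

theorem PS_option (ι : Type) {α : Type} [Fintype α] (ih : PS ι α) : PS ι (Option α) := by
  intro a ha
  have h := ih (fun x => a (some x)) (fun x => ha (some x))
  set φ : (Option α → ι) ≃ ι × (α → ι) := Equiv.piOptionEquivProd with hφ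
  have hre : ∀ p : ι × (α → ι), ∏ x, a x ((φ.symm p) x) =
      a none p.1 * ∏ x, a (some x) (p.2 x) := by
    intro p
    rw [Fintype.prod_option]
    rfl
  have hs : Summable fun p : ι × (α → ι) => ‖a none p.1‖ * ‖∏ x, a (some x) (p.2 x)‖ :=
    (ha none).mul_of_nonneg h.1 (fun _ => norm_nonneg _) (fun _ => norm_nonneg _)
  constructor
  · rw [← φ.symm.summable_iff]
    refine hs.congr fun p => ?_
    show _ = ‖∏ x, a x ((φ.symm p) x)‖
    rw [hre p, norm_mul]
  · rw [← φ.symm.tsum_eq, Fintype.prod_option, ← h.2,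
      tsum_mul_tsum_of_summable_norm (ha none) h.1]
    exact tsum_congr fun p => hre p

/-- product of absolutely convergent series -/
theorem prod_tsum_all (ι : Type) (E : Type) [Fintype E] : PS ι E :=
  Fintype.induction_empty_option (P := fun E _ => PS ι E)
    (fun _ β _ e ih => @PS_equiv ι _ β (Fintype.ofEquiv β e.symm) _ e ih)
    (PS_empty ι) (fun _ _ ih => PS_option ι ih) E

end Vale.Agent.P159.H353
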